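import Vale.Agent.P166.Transfer

namespace Vale.Agent.Results.P166.LimitDependsOnlyOnLaw

open Vale.Agent.P166 MeasureTheory Filter Topology

theorem result (β : ℝ) (hβ : 0 ≤ β) (ν : ProbabilityMeasure ℝ)
    (hν : IsCompact (ν : Measure ℝ).support)
    (lam lam' : ∀ n : ℕ, Fin (n + 1) → ℝ)
    (hw : Tendsto (fun n => empirical (lam n)) atTop (𝓝 ν))
    (hw' : Tendsto (fun n => empirical (lam' n)) atTop (𝓝 ν))
    (hmin : Tendsto (fun n => ⨅ i, lam n i) atTop (𝓝 (sInf (ν : Measure ℝ).support)))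
    (hmax : Tendsto (fun n => ⨆ i, lam n i) atTop (𝓝 (sSup (ν : Measure ℝ).support)))
    (hmin' : Tendsto (fun n => ⨅ i, lam' n i) atTop (𝓝 (sInf (ν : Measure ℝ).support)))
    (hmax' : Tendsto (fun n => ⨆ i, lam' n i) atTop (𝓝 (sSup (ν : Measure ℝ).support)))
    [∀ n, MeasurableSpace (Matrix.orthogonalGroup (Fin (n + 1)) ℝ)]
    [∀ n, BorelSpace (Matrix.orthogonalGroup (Fin (n + 1)) ℝ)]
    (haar : ∀ n, Measure (Matrix.orthogonalGroup (Fin (n + 1)) ℝ))
    [∀ n, IsProbabilityMeasure (haar n)] [∀ n, (haar n).IsMulLeftInvariant] :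
    Tendsto (fun n => meanPressure (haar n) β (lam n) - meanPressure (haar n) β (lam' n))
      atTop (𝓝 0) ∧
    ∀ c : ℝ,
      (∀ ε : ℝ, 0 < ε →
        Tendsto (fun n => haar n {U | ε ≤ |pressure β (lam n) U - c|}) atTop (𝓝 0)) →
      ∀ ε : ℝ, 0 < ε →
        Tendsto (fun n => haar n {U | ε ≤ |pressure β (lam' n) U - c|}) atTop (𝓝 0) :=
  ⟨universality β hβ ν hν lam lam' hw hw' hmin hmax hmin' hmax' haar,
    fun c hc => transfer β hβ ν hν lam lam' hw hw' hmin hmax hmin' hmax' haar c hc⟩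

end Vale.Agent.Results.P166.LimitDependsOnlyOnLaw
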